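/-
A strictly convex `L_p`-summand.
-/
import Mathlib

namespace Vale.Agent.Lib.P084.LpSumW

/-- `range P` is a nonzero strictly convex `L_p`-summand of `X`, with complement `ker P`:
`X = ker P ⊕_p range P`, the subspace `range P` strictly convex. -/
structure IsLpSummand {X : Type*} [NormedAddCommGroup X] [NormedSpace ℝ X] (p : ℝ)
    (P : X →L[ℝ] X) : Prop where
  idem : ∀ x, P (P x) = P x
  ne_zero : ∃ x, P x ≠ 0
  pyth : ∀ x, ‖x‖ ^ p = ‖x - P x‖ ^ p + ‖P x‖ ^ p
  strict : StrictConvexSpace ℝ (LinearMap.range (P : X →ₗ[ℝ] X))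

end Vale.Agent.Lib.P084.LpSumW
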