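/-
Tingley's problem for `Z ⊕_p W`, `1 < p < ∞`, `W` strictly convex, `Z` arbitrary: definitions and the
common linear map.  The skeleton is the one of `LpSum/Main.lean` (the case `W = ℝ`).
-/
import Vale.Agent.Lib.P084.LpSum.Main
import Vale.Agent.Lib.P084.LpSumW.Def

namespace Vale.Agent.Lib.P084.LpSumW

open Vale.Agent.Lib.P084.UC Vale.Agent.Lib.P084.RNP Vale.Agent.Lib.P084.NS
open Vale.Agent.Lib.P084.LpSum
open Metric

universe u v

variable {X : Type u} {Y : Type v} [NormedAddCommGroup X] [NormedSpace ℝ X] [NormedAddCommGroup Y]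
  [NormedSpace ℝ Y]

/-- The vector valued version of `exists_functional_of_additive`. -/
theorem exists_linear_of_additive' {W : Type*} [NormedAddCommGroup W] [NormedSpace ℝ W]
    (hrank : (4 : Cardinal) ≤ Module.rank ℝ Y) {H : Y → W}
    (hodd : ∀ y : Y, ‖y‖ = 1 → H (-y) = - H y)
    (hbd : ∀ y : Y, ‖y‖ = 1 → ‖H y‖ ≤ 1)
    (hlip : ∀ y y' : Y, ‖y‖ = 1 → ‖y'‖ = 1 → ‖H y - H y'‖ ≤ ‖y - y'‖)
    (hadd : ∀ y y' : Y, ‖y‖ = 1 → ‖y'‖ = 1 → ‖y + y'‖ = 1 → H (y + y') = H y + H y') :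
    ∃ ψ : Y →L[ℝ] W, (∀ y, ‖ψ y‖ ≤ ‖y‖) ∧ ∀ y, ‖y‖ = 1 → ψ y = H y := by
  classical
  set R : Y → W := fun a => ‖a‖ • H (‖a‖⁻¹ • a) with hR
  have hRsub : ∀ F : Submodule ℝ Y, FiniteDimensional ℝ F → 4 ≤ Module.finrank ℝ F →
      ∃ τ : F →ₗ[ℝ] W, ∀ x : F, τ x = R x := by
    intro F hFd hF4
    let G : F → F × W := fun x => (x, H (x : Y))
    have hG1 : ∀ x : F, ‖x‖ = 1 → ‖G x‖ = 1 := by
      intro x hx
      have hx' : ‖(x : Y)‖ = 1 := hx
      rw [Prod.norm_def]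
      show max ‖x‖ ‖H (x : Y)‖ = 1
      rw [hx]
      exact max_eq_left (hbd _ hx')
    have hG2 : ∀ x x' : F, ‖x‖ = 1 → ‖x'‖ = 1 → ‖G x - G x'‖ = ‖x - x'‖ := by
      intro x x' hx hx'
      have e : G x - G x' = (x - x', H (x : Y) - H (x' : Y)) := rfl
      rw [e, Prod.norm_def]
      show max ‖x - x'‖ ‖H (x : Y) - H (x' : Y)‖ = ‖x - x'‖
      exact max_eq_left (hlip _ _ hx hx')
    have hG3 : ∀ x : F, ‖x‖ = 1 → G (-x) = - G x := by
      intro x hx
      have hx' : ‖(x : Y)‖ = 1 := hx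
      apply Prod.ext
      · rfl
      · exact hodd _ hx'
    have hG4 : ∀ x y : F, ‖x‖ = 1 → ‖y‖ = 1 → ‖x + y‖ = 1 → G (x + y) = G x + G y := by
      intro x y hx hy hxy
      apply Prod.ext
      · rfl
      · exact hadd _ _ hx hy hxy
    obtain ⟨T, hT⟩ := exists_linearIsometry_of_add hF4 hG1 hG2 hG3 hG4
    refine ⟨(LinearMap.snd ℝ F W).comp T.toLinearMap, fun x => ?_⟩
    by_cases hx : x = 0
    · subst hx
      simp [hR]
    · have hn : ‖x‖ ≠ 0 := norm_ne_zero_iff.2 hx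
      have hu : ‖‖x‖⁻¹ • x‖ = 1 := by
        rw [norm_smul, norm_inv, norm_norm, inv_mul_cancel₀ hn]
      have h1 := hT _ hu
      have h2 : T x = ‖x‖ • T (‖x‖⁻¹ • x) := by
        rw [map_smul, smul_smul, mul_inv_cancel₀ hn, one_smul]
      show (T x).2 = R x
      rw [h2, h1]
      rfl
  have hRadd : ∀ x x', R (x + x') = R x + R x' := by
    intro x x'
    obtain ⟨F, hFd, hF4, hFS⟩ := exists_sub4 hrank {x, x'}
    have hxF : x ∈ F := hFS x (by simp)
    have hx'F : x' ∈ F := hFS x' (by simp)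
    obtain ⟨τ, hτ⟩ := hRsub F hFd hF4
    have h1 := hτ ⟨x, hxF⟩
    have h2 := hτ ⟨x', hx'F⟩
    have h3 := hτ (⟨x, hxF⟩ + ⟨x', hx'F⟩)
    rw [map_add, h1, h2] at h3
    exact h3.symm
  have hRbd : ∀ x, ‖R x‖ ≤ ‖x‖ := by
    intro x
    by_cases hx : x = 0
    · subst hx
      simp [hR]
    · have hn : ‖x‖ ≠ 0 := norm_ne_zero_iff.2 hx
      have hu : ‖‖x‖⁻¹ • x‖ = 1 := by
        rw [norm_smul, norm_inv, norm_norm, inv_mul_cancel₀ hn]
      simp only [hR]
      rw [norm_smul, norm_norm]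
      have := hbd _ hu
      nlinarith [norm_nonneg x]
  let Rh : Y →+ W := AddMonoidHom.mk' R hRadd
  have hcont : Continuous Rh := by
    refine AddMonoidHomClass.continuous_of_bound Rh 1 fun x => ?_
    rw [one_mul]
    exact hRbd x
  refine ⟨Rh.toRealLinearMap hcont, fun y => hRbd y, fun y hy => ?_⟩
  show R y = H y
  simp only [hR, hy, inv_one, one_smul]

/-- Real lemma: flatness in the `p`-sum. -/
theorem flat_real' {p : ℝ} (hp : 1 < p) {A B a u v n : ℝ} (hA : 0 ≤ A) (hB : 0 ≤ B) (ha : 0 ≤ a)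
    (hu : 0 ≤ u) (hv : 0 ≤ v) (hn : 0 ≤ n)
    (hab : 2 * a ≤ A + B) (huv : 2 * n ≤ u + v) (h1 : A ^ p + u ^ p = a ^ p + n ^ p)
    (h2 : B ^ p + v ^ p = a ^ p + n ^ p) : u = v ∧ u = n := by
  have hp0 : 0 < p := by linarith
  have hc := strictConvexOn_rpow hp
  have hmid : ∀ x y : ℝ, 0 ≤ x → 0 ≤ y → ((x + y) / 2) ^ p ≤ (x ^ p + y ^ p) / 2 := by
    intro x y hx hy
    have := hc.convexOn.2 (Set.mem_Ici.2 hx) (Set.mem_Ici.2 hy) (by norm_num : (0 : ℝ) ≤ 1 / 2)
      (by norm_num : (0 : ℝ) ≤ 1 / 2) (by norm_num)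
    simp only [smul_eq_mul] at this
    have e : 1 / 2 * x + 1 / 2 * y = (x + y) / 2 := by ring
    rw [e] at this
    linarith
  have c1 : a ^ p ≤ (A ^ p + B ^ p) / 2 :=
    (Real.rpow_le_rpow ha (by linarith) hp0.le).trans (hmid A B hA hB)
  have c2 : n ^ p ≤ ((u + v) / 2) ^ p :=
    Real.rpow_le_rpow hn (by linarith) hp0.le
  have c3 := hmid _ _ hu hv
  have huev : u = v := by
    by_contra hne
    have := hc.2 (Set.mem_Ici.2 hu) (Set.mem_Ici.2 hv) hne (by norm_num : (0 : ℝ) < 1 / 2)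
      (by norm_num : (0 : ℝ) < 1 / 2) (by norm_num)
    simp only [smul_eq_mul] at this
    have e : 1 / 2 * u + 1 / 2 * v = (u + v) / 2 := by ring
    rw [e] at this
    linarith
  refine ⟨huev, ?_⟩
  apply rpow_inj hp0 hu hn
  rw [← huev] at h2 c2
  have e : (u + u) / 2 = u := by ring
  rw [e] at c2
  linarith

namespace IsLpSummand

variable {p : ℝ} {P : X →L[ℝ] X}

theorem eq_of_norm_eq (H : IsLpSummand p P) {a b : X} (ha : P a = a) (hb : P b = b)
    (hn : ‖a‖ = ‖b‖) (hs : ‖a + b‖ = ‖a‖ + ‖b‖) : a = b := by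
  haveI := H.strict
  have ha' : a ∈ LinearMap.range (P : X →ₗ[ℝ] X) := ⟨a, ha⟩
  have hb' : b ∈ LinearMap.range (P : X →ₗ[ℝ] X) := ⟨b, hb⟩
  have := eq_of_norm_eq_of_norm_add_eq (x := (⟨a, ha'⟩ : LinearMap.range (P : X →ₗ[ℝ] X)))
    (y := ⟨b, hb'⟩) hn hs
  exact congrArg Subtype.val this

theorem norm_le (H : IsLpSummand p P) (hp : 1 < p) (x : X) : ‖P x‖ ≤ ‖x‖ := by
  have hp0 : 0 < p := by linarith
  have h1 := H.pyth x
  have h2 : 0 ≤ ‖x - P x‖ ^ p := by positivity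
  have h3 : ‖P x‖ ^ p ≤ ‖x‖ ^ p := by linarith
  exact (Real.rpow_le_rpow_iff (norm_nonneg _) (norm_nonneg _) hp0).1 h3

/-- Flat directions are killed by `P`. -/
theorem flat (H : IsLpSummand p P) (hp : 1 < p) {v ε : X} (h1 : ‖v + ε‖ = ‖v‖)
    (h2 : ‖v - ε‖ = ‖v‖) : P ε = 0 := by
  have hab : 2 * ‖v - P v‖ ≤ ‖v + ε - P (v + ε)‖ + ‖v - ε - P (v - ε)‖ := by
    have e1 : (2 : ℝ) • (v - P v) = (v + ε - P (v + ε)) + (v - ε - P (v - ε)) := by
      simp only [map_add, map_sub]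
      module
    have h3 := norm_add_le (v + ε - P (v + ε)) (v - ε - P (v - ε))
    rw [← e1, norm_smul] at h3
    simpa using h3
  have huv : 2 * ‖P v‖ ≤ ‖P v + P ε‖ + ‖P v - P ε‖ := by
    have e1 : (2 : ℝ) • P v = (P v + P ε) + (P v - P ε) := by module
    have h3 := norm_add_le (P v + P ε) (P v - P ε)
    rw [← e1, norm_smul] at h3
    simpa using h3
  have h3 := H.pyth (v + ε)
  have h4 := H.pyth (v - ε)
  rw [h1, H.pyth v] at h3
  rw [h2, H.pyth v] at h4
  rw [map_add] at h3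
  rw [map_sub] at h4
  have h3' := h3.symm
  have h4' := h4.symm
  rw [← map_add] at h3'
  rw [← map_sub] at h4'
  obtain ⟨h5, h6⟩ := flat_real' hp (A := ‖v + ε - P (v + ε)‖) (B := ‖v - ε - P (v - ε)‖)
    (a := ‖v - P v‖) (u := ‖P v + P ε‖) (v := ‖P v - P ε‖) (n := ‖P v‖)
    (norm_nonneg _) (norm_nonneg _) (norm_nonneg _) (norm_nonneg _) (norm_nonneg _)
    (norm_nonneg _) hab huv (by rw [← map_add]; exact h3') (by rw [← map_sub]; exact h4')
  have h7 : P v + P ε = P v - P ε := by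
    apply H.eq_of_norm_eq
    · rw [map_add, H.idem, H.idem]
    · rw [map_sub, H.idem, H.idem]
    · exact h5
    · have e : P v + P ε + (P v - P ε) = (2 : ℝ) • P v := by module
      rw [e, norm_smul, ← h5, h6]
      norm_num
      ring
  have h8 : (2 : ℝ) • P ε = 0 := by
    have : (2 : ℝ) • P ε = (P v + P ε) - (P v - P ε) := by module
    rw [this, h7, sub_self]
  simpa using h8

/-- A unit vector whose projection is a unit vector lies in the range of `P`. -/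
theorem eq_of_P_unit (H : IsLpSummand p P) (hp : 1 < p) {u w : X} (hu : ‖u‖ = 1) (hw : ‖w‖ = 1)
    (h : P u = w) : u = w := by
  have hp0 : 0 < p := by linarith
  have h1 := H.pyth u
  rw [hu, h, hw, Real.one_rpow] at h1
  have h2 : ‖u - w‖ ^ p = 0 := by linarith
  have h3 : ‖u - w‖ = 0 := by
    rwa [Real.rpow_eq_zero (norm_nonneg _) hp0.ne'] at h2
  exact sub_eq_zero.1 (norm_eq_zero.1 h3)

/-- The reflection. -/
theorem bar_P (H : IsLpSummand p P) (x : X) : P ((2 : ℝ) • P x - x) = P x := by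
  rw [map_sub, map_smul, H.idem]
  module

theorem bar_unit (H : IsLpSummand p P) (hp : 1 < p) {t : X} (ht : ‖t‖ = 1) :
    ‖(2 : ℝ) • P t - t‖ = 1 := by
  have hp0 : 0 < p := by linarith
  have h0 := H.pyth t
  have h1 := H.pyth ((2 : ℝ) • P t - t)
  rw [H.bar_P] at h1
  have e1 : (2 : ℝ) • P t - t - P t = -(t - P t) := by module
  rw [e1, norm_neg, ← h0, ht, Real.one_rpow] at h1
  apply rpow_inj hp0 (norm_nonneg _) zero_le_one
  rw [h1, Real.one_rpow]

end IsLpSummand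

/-- The standing assumptions. -/
structure Ctx (p : ℝ) (P : X →L[ℝ] X) (f : X → Y) (g : Y → X) (L : Y →L[ℝ] X) : Prop where
  H : IsLpSummand p P
  hp : 1 < p
  hf : IsSphereIso f
  hg : IsSphereIso g
  hgf : ∀ x : X, ‖x‖ = 1 → g (f x) = x
  hfg : ∀ y : Y, ‖y‖ = 1 → f (g y) = y
  hodd : ∀ x : X, ‖x‖ = 1 → f (-x) = - f x
  hLb : ∀ y, ‖L y‖ ≤ ‖y‖
  hL : ∀ x : X, ‖x‖ = 1 → L (f x) = P x

/-- The common linear map. -/
theorem exists_L {p : ℝ} {P : X →L[ℝ] X} {f : X → Y} {g : Y → X} (H : IsLpSummand p P)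
    (hp : 1 < p) (hrank : (4 : Cardinal) ≤ Module.rank ℝ Y) (hf : IsSphereIso f)
    (hg : IsSphereIso g) (hgf : ∀ x : X, ‖x‖ = 1 → g (f x) = x)
    (hfg : ∀ y : Y, ‖y‖ = 1 → f (g y) = y) (hodd : ∀ x : X, ‖x‖ = 1 → f (-x) = - f x)
    (hgodd : ∀ y : Y, ‖y‖ = 1 → g (-y) = - g y) :
    ∃ L : Y →L[ℝ] X, (∀ y, ‖L y‖ ≤ ‖y‖) ∧ ∀ x : X, ‖x‖ = 1 → L (f x) = P x := by
  obtain ⟨L, h1, h2⟩ := exists_linear_of_additive' hrank (H := fun y => P (g y))
    (fun y hy => by
      show P (g (-y)) = - P (g y)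
      rw [hgodd y hy, map_neg])
    (fun y hy => by
      have := H.norm_le hp (g y)
      rwa [hg.norm_eq y hy] at this)
    (fun y y' hy hy' => by
      show ‖P (g y) - P (g y')‖ ≤ _
      rw [← map_sub, ← hg.iso y y' hy hy']
      exact H.norm_le hp _)
    (fun y y' hy hy' hyy' => by
      show P (g (y + y')) = P (g y) + P (g y')
      set x := g y with hx
      set z := g y' with hz
      set w := g (-(y + y')) with hw
      have hx1 : ‖x‖ = 1 := hg.norm_eq y hy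
      have hz1 : ‖z‖ = 1 := hg.norm_eq y' hy'
      have hw1 : ‖w‖ = 1 := hg.norm_eq _ (by rw [norm_neg]; exact hyy')
      have hfx : f x = y := hfg y hy
      have hfz : f z = y' := hfg y' hy'
      have hfw : f w = -(y + y') := hfg _ (by rw [norm_neg]; exact hyy')
      have hwe : w = - g (y + y') := hgodd _ hyy'
      have hxw : ‖x + w‖ = 1 := by
        rw [← norm_f_add' hf hodd hx1 hw1, hfx, hfw]
        have : y + -(y + y') = - y' := by abel
        rw [this, norm_neg]; exact hy'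
      have hzw : ‖z + w‖ = 1 := by
        rw [← norm_f_add' hf hodd hz1 hw1, hfz, hfw]
        have : y' + -(y + y') = - y := by abel
        rw [this, norm_neg]; exact hy
      have h3 := two_add_eq hf hodd hx1 hw1 hxw hz1 (by rw [hfw, hfx, hfz]; abel)
      have h4 := two_add_eq hf hodd hz1 hw1 hzw hx1 (by rw [hfw, hfx, hfz]; abel)
      have hflat : P (x + z + w) = 0 := by
        refine H.flat hp (v := x - z) ?_ ?_
        · have e : x - z + (x + z + w) = (2 : ℝ) • x + w := by module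
          rw [e, h3]
        · have e : x - z - (x + z + w) = -((2 : ℝ) • z + w) := by module
          rw [e, norm_neg, h4, norm_sub_rev]
      rw [map_add, map_add, hwe, map_neg] at hflat
      have e : P (g (y + y')) = P x + P z := by
        have := hflat
        rw [add_neg_eq_zero] at this
        exact this.symm
      exact e)
  exact ⟨L, h1, fun x hx => by rw [h2 _ (hf.norm_eq x hx)]; show P (g (f x)) = P x; rw [hgf x hx]⟩

end Vale.Agent.Lib.P084.LpSumW
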