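/-
Tingley's problem for `Z ⊕_p W`, `1 < p < ∞`, `W` strictly convex, `Z` arbitrary: a surjective sphere
isometry of a space with a strictly convex `L_p`-summand extends to a linear isometry.

Let `P` be the projection on `W` and `Q = 1 - P`.
(1) Flatness and the strict convexity of `t ↦ t ^ p` and of `W` give that `P` kills all defects of
`Y`-triples, so `P ∘ g` is additive on unit triples of `Y`, hence linear: `L ∘ f = P` on the sphere.
(2) For unit `w ∈ W`, `{v unit : L v = w} = {f w}`.  With `R w = ‖w‖ • f (w / ‖w‖)`, `t' = 2 P t - t`: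
`f t + f t' = 2 R (P t)`.  So `τ t = f t - R (P t)` lies in `ker L`, `‖τ t‖ = ‖Q t‖`, `τ t' = -τ t`,
and `‖y‖ ^ p = ‖y - R (L y)‖ ^ p + ‖L y‖ ^ p`: `Y` is a `p`-sum along the possibly nonlinear `R`.
(3) `D = R w - R w' - R (w - w') ∈ ker L`, `‖D ± (τ x - τ x')‖ = ‖Q x - Q x'‖`, and with `τ x`, `τ x'` in
opposite directions along `D` this forces `D = 0`: `R` is a linear isometry on `W`.
(4) On the open unit ball of `ker P`, `ζ ↦ τ (ζ + b w₀)` is an isometry onto the open unit ball of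
`ker L` fixing `0`; the local Mazur-Ulam theorem makes it linear.
-/
import Vale.Agent.Lib.P084.LpSumW.Basic

namespace Vale.Agent.Lib.P084.LpSumW

open Vale.Agent.Lib.P084.UC Vale.Agent.Lib.P084.RNP Vale.Agent.Lib.P084.NS
open Vale.Agent.Lib.P084.LpSum
open Vale.Agent.Lib.P084.LpSum.Ctx (bb bb_pos bb_rpow)
open Metric

universe u v

variable {X : Type u} {Y : Type v} [NormedAddCommGroup X] [NormedSpace ℝ X] [NormedAddCommGroup Y]
  [NormedSpace ℝ Y]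

theorem exists_decomp {y : Y} (hy : y ≠ 0) : ∃ (r : ℝ) (v : Y), 0 < r ∧ ‖v‖ = 1 ∧ y = r • v := by
  have hr : 0 < ‖y‖ := norm_pos_iff.2 hy
  refine ⟨‖y‖, ‖y‖⁻¹ • y, hr, ?_, ?_⟩
  · rw [norm_smul, norm_inv, norm_norm, inv_mul_cancel₀ hr.ne']
  · rw [smul_smul, mul_inv_cancel₀ hr.ne', one_smul]

theorem unit_of_ne {w : X} (hw : w ≠ 0) : ‖‖w‖⁻¹ • w‖ = 1 := by
  have hr : 0 < ‖w‖ := norm_pos_iff.2 hw
  rw [norm_smul, norm_inv, norm_norm, inv_mul_cancel₀ hr.ne']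

/-- The radial extension of `f`. -/
noncomputable def RR (f : X → Y) (w : X) : Y := ‖w‖ • f (‖w‖⁻¹ • w)

theorem RR_zero (f : X → Y) : RR f 0 = 0 := by simp [RR]

theorem RR_unit (f : X → Y) {w : X} (hw : ‖w‖ = 1) : RR f w = f w := by simp [RR, hw]

theorem RR_smul (f : X → Y) {c : ℝ} (hc : 0 < c) (w : X) : RR f (c • w) = c • RR f w := by
  by_cases hw : w = 0
  · subst hw
    simp [RR]
  have hn : ‖w‖ ≠ 0 := norm_ne_zero_iff.2 hw
  have e : (c * ‖w‖)⁻¹ • c • w = ‖w‖⁻¹ • w := by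
    rw [smul_smul]
    congr 1
    field_simp
  simp only [RR]
  rw [norm_smul, Real.norm_of_nonneg hc.le, e, mul_smul]

namespace IsLpSummand

variable {p : ℝ} {P : X →L[ℝ] X}

theorem norm_sub_le (H : IsLpSummand p P) (hp : 1 < p) (x : X) : ‖x - P x‖ ≤ ‖x‖ := by
  have hp0 : 0 < p := by linarith
  have h1 := H.pyth x
  have h2 : 0 ≤ ‖P x‖ ^ p := by positivity
  have h3 : ‖x - P x‖ ^ p ≤ ‖x‖ ^ p := by linarith
  exact (Real.rpow_le_rpow_iff (norm_nonneg _) (norm_nonneg _) hp0).1 h3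

end IsLpSummand

/-- The `ker L` part of `f`. -/
noncomputable def tau (f : X → Y) (P : X →L[ℝ] X) (t : X) : Y := f t - RR f (P t)

/-- The projection on `ker P`. -/
noncomputable def piX {p : ℝ} {P : X →L[ℝ] X} (H : IsLpSummand p P) :
    X →ₗ[ℝ] LinearMap.ker (P : X →ₗ[ℝ] X) :=
  LinearMap.codRestrict _ ((LinearMap.id : X →ₗ[ℝ] X) - (P : X →ₗ[ℝ] X)) (fun x => by
    rw [LinearMap.mem_ker]
    show P (x - P x) = 0
    rw [map_sub, H.idem, sub_self])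

theorem piX_coe {p : ℝ} {P : X →L[ℝ] X} (H : IsLpSummand p P) (x : X) :
    (piX H x : X) = x - P x := rfl

/-- The unit vector over `ζ`. -/
noncomputable def UU {P : X →L[ℝ] X} (p : ℝ) (w₀ : X) (ζ : LinearMap.ker (P : X →ₗ[ℝ] X)) : X :=
  (ζ : X) + bb p ‖ζ‖ • w₀

namespace Ctx

variable {p : ℝ} {P : X →L[ℝ] X} {f : X → Y} {g : Y → X} {L : Y →L[ℝ] X}

theorem hp0 (C : Ctx p P f g L) : 0 < p := by linarith [C.hp]

/-- `L` takes values in the range of `P`. -/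
theorem P_L (C : Ctx p P f g L) (y : Y) : P (L y) = L y := by
  by_cases hy : y = 0
  · subst hy
    simp
  obtain ⟨r, v, hr, hv, rfl⟩ := exists_decomp hy
  have h1 := C.hL _ (C.hg.norm_eq _ hv)
  rw [C.hfg _ hv] at h1
  rw [map_smul, map_smul, h1, C.H.idem]

theorem norm_RR (C : Ctx p P f g L) (w : X) : ‖RR f w‖ = ‖w‖ := by
  by_cases hw : w = 0
  · subst hw
    simp [RR]
  rw [RR, norm_smul, norm_norm, C.hf.norm_eq _ (unit_of_ne hw), mul_one]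

theorem L_RR (C : Ctx p P f g L) {w : X} (hw : P w = w) : L (RR f w) = w := by
  by_cases h : w = 0
  · subst h
    simp [RR]
  have hn : ‖w‖ ≠ 0 := norm_ne_zero_iff.2 h
  rw [RR, map_smul, C.hL _ (unit_of_ne h), map_smul, hw, smul_smul, mul_inv_cancel₀ hn, one_smul]

/-- The fibre of `L` over a unit vector. -/
theorem eq_f (C : Ctx p P f g L) {v : Y} {w : X} (hv : ‖v‖ = 1) (hw : ‖w‖ = 1) (h : L v = w) :
    v = f w := by
  have h1 : ‖g v‖ = 1 := C.hg.norm_eq v hv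
  have h2 : P (g v) = w := by rw [← C.hL _ h1, C.hfg v hv, h]
  have h3 := C.H.eq_of_P_unit C.hp h1 hw h2
  rw [← h3, C.hfg v hv]

theorem K_eq (C : Ctx p P f g L) {t : X} (ht : ‖t‖ = 1) (hb : P t ≠ 0) :
    f t + f ((2 : ℝ) • P t - t) = (2 : ℝ) • RR f (P t) := by
  have ht' := C.H.bar_unit C.hp ht
  have hbar := C.H.bar_P t
  set K := f t + f ((2 : ℝ) • P t - t) with hK
  have hb0 : 0 < ‖P t‖ := norm_pos_iff.2 hb
  have hn : ‖K‖ = 2 * ‖P t‖ := by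
    rw [hK, norm_f_add' C.hf C.hodd ht ht']
    have e1 : t + ((2 : ℝ) • P t - t) = (2 : ℝ) • P t := by abel
    rw [e1, norm_smul]
    norm_num
  have hLK : L K = (2 : ℝ) • P t := by
    rw [hK, map_add, C.hL t ht, C.hL _ ht', hbar]
    module
  have h2b : 2 * ‖P t‖ ≠ 0 := by positivity
  have hv := C.eq_f (v := (2 * ‖P t‖)⁻¹ • K) (w := ‖P t‖⁻¹ • P t)
    (by rw [norm_smul, hn, norm_inv, Real.norm_of_nonneg (by positivity), inv_mul_cancel₀ h2b])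
    (unit_of_ne hb)
    (by
      rw [map_smul, hLK, smul_smul]
      congr 1
      field_simp)
  have e2 : K = (2 * ‖P t‖) • ((2 * ‖P t‖)⁻¹ • K) := by
    rw [smul_smul, mul_inv_cancel₀ h2b, one_smul]
  rw [e2, hv, RR, smul_smul]

theorem tau_bar (C : Ctx p P f g L) {t : X} (ht : ‖t‖ = 1) :
    tau f P ((2 : ℝ) • P t - t) = - tau f P t := by
  rw [tau, tau, C.H.bar_P]
  by_cases hb : P t = 0
  · have e : (2 : ℝ) • P t - t = -t := by rw [hb]; simp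
    rw [e, hb, C.hodd t ht, RR_zero]
    simp
  · have h := C.K_eq ht hb
    have e : f ((2 : ℝ) • P t - t) = (2 : ℝ) • RR f (P t) - f t := by
      rw [← h]
      abel
    rw [e]
    module

theorem norm_tau (C : Ctx p P f g L) {t : X} (ht : ‖t‖ = 1) : ‖tau f P t‖ = ‖t - P t‖ := by
  by_cases hb : P t = 0
  · rw [tau, hb, RR_zero, sub_zero, sub_zero, C.hf.norm_eq t ht, ht]
  · have h := C.K_eq ht hb
    have ht' := C.H.bar_unit C.hp ht
    have e1 : tau f P t = (1 / 2 : ℝ) • (f t - f ((2 : ℝ) • P t - t)) := by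
      have e : RR f (P t) = (1 / 2 : ℝ) • (f t + f ((2 : ℝ) • P t - t)) := by
        rw [h, smul_smul]
        norm_num
      rw [tau, e]
      module
    have e3 : t - ((2 : ℝ) • P t - t) = (2 : ℝ) • (t - P t) := by module
    rw [e1, norm_smul, C.hf.iso _ _ ht ht', e3, norm_smul]
    norm_num
    ring

theorem L_tau (C : Ctx p P f g L) {t : X} (ht : ‖t‖ = 1) : L (tau f P t) = 0 := by
  rw [tau, map_sub, C.hL t ht, C.L_RR (C.H.idem t), sub_self]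

/-- The norm of `Y`. -/
theorem norm_formula (C : Ctx p P f g L) (y : Y) :
    ‖y‖ ^ p = ‖y - RR f (L y)‖ ^ p + ‖L y‖ ^ p := by
  by_cases hy : y = 0
  · subst hy
    simp [RR_zero, Real.zero_rpow C.hp0.ne']
  obtain ⟨r, v, hr, hv, rfl⟩ := exists_decomp hy
  have ht : ‖g v‖ = 1 := C.hg.norm_eq v hv
  have hft : f (g v) = v := C.hfg v hv
  have hLv : L v = P (g v) := by rw [← C.hL _ ht, hft]
  have e1 : L (r • v) = r • P (g v) := by rw [map_smul, hLv]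
  have e2 : r • v - RR f (L (r • v)) = r • tau f P (g v) := by
    rw [e1, RR_smul f hr, tau, hft, smul_sub]
  have h0 := C.H.pyth (g v)
  rw [ht, Real.one_rpow] at h0
  rw [e2, e1, norm_smul, norm_smul, norm_smul, Real.norm_of_nonneg hr.le, hv, C.norm_tau ht,
    mul_one, Real.mul_rpow hr.le (norm_nonneg _), Real.mul_rpow hr.le (norm_nonneg _), ← mul_add,
    ← h0, mul_one]

theorem key (C : Ctx p P f g L) {x x' : X} (hx : ‖x‖ = 1) (hx' : ‖x'‖ = 1) :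
    ‖f x - f x' - RR f (P x - P x')‖ = ‖(x - P x) - (x' - P x')‖ := by
  have h1 := C.norm_formula (f x - f x')
  have h2 := C.H.pyth (x - x')
  have hLy : L (f x - f x') = P x - P x' := by rw [map_sub, C.hL x hx, C.hL x' hx']
  rw [C.hf.iso x x' hx hx', h2, hLy, map_sub] at h1
  apply rpow_inj C.hp0 (norm_nonneg _) (norm_nonneg _)
  have e : x - x' - (P x - P x') = (x - P x) - (x' - P x') := by abel
  rw [← e]
  linarith

/-- Points over `(u, w)`. -/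
theorem exists_point (C : Ctx p P f g L) {w : X} {u : Y} (hw : P w = w) (hu : L u = 0)
    (h : ‖u‖ ^ p + ‖w‖ ^ p = 1) : ∃ x : X, ‖x‖ = 1 ∧ P x = w ∧ tau f P x = u := by
  have hLy : L (RR f w + u) = w := by rw [map_add, C.L_RR hw, hu, add_zero]
  have hy1 : ‖RR f w + u‖ = 1 := by
    have h1 := C.norm_formula (RR f w + u)
    rw [hLy, add_sub_cancel_left, h] at h1
    apply rpow_inj C.hp0 (norm_nonneg _) zero_le_one
    rw [h1, Real.one_rpow]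
  have ht : ‖g (RR f w + u)‖ = 1 := C.hg.norm_eq _ hy1
  have hft : f (g (RR f w + u)) = RR f w + u := C.hfg _ hy1
  have hP : P (g (RR f w + u)) = w := by rw [← C.hL _ ht, hft, hLy]
  refine ⟨g (RR f w + u), ht, hP, ?_⟩
  rw [tau, hft, hP, add_sub_cancel_left]

/-- The separation argument. -/
theorem sep (C : Ctx p P f g L) {x₁ x₂ : X} (hx₁ : ‖x₁‖ = 1) (hx₂ : ‖x₂‖ = 1) {E : Y} {d c : ℝ}
    (hE : ‖E‖ = 1) (hd : 0 < d) (hc : 0 < c) (h : tau f P x₁ - tau f P x₂ = c • E)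
    (hD : RR f (P x₁) - RR f (P x₂) - RR f (P x₁ - P x₂) = d • E) : False := by
  have k1 := C.key hx₁ hx₂
  have k2 := C.key (C.H.bar_unit C.hp hx₁) (C.H.bar_unit C.hp hx₂)
  rw [C.H.bar_P, C.H.bar_P] at k2
  have t1 := C.tau_bar hx₁
  have t2 := C.tau_bar hx₂
  rw [tau, C.H.bar_P] at t1 t2
  have e1 : f x₁ - f x₂ - RR f (P x₁ - P x₂) = (c + d) • E := by
    rw [add_smul, ← h, ← hD, tau, tau]
    abel
  have e2 : f ((2 : ℝ) • P x₁ - x₁) - f ((2 : ℝ) • P x₂ - x₂) - RR f (P x₁ - P x₂)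
      = (d - c) • E := by
    have f1 : f ((2 : ℝ) • P x₁ - x₁) = - tau f P x₁ + RR f (P x₁) := by
      rw [← t1]
      abel
    have f2 : f ((2 : ℝ) • P x₂ - x₂) = - tau f P x₂ + RR f (P x₂) := by
      rw [← t2]
      abel
    rw [sub_smul, ← h, ← hD, f1, f2]
    abel
  have e3 : ((2 : ℝ) • P x₁ - x₁ - P x₁) - ((2 : ℝ) • P x₂ - x₂ - P x₂)
      = -((x₁ - P x₁) - (x₂ - P x₂)) := by module
  rw [e1, norm_smul, hE, mul_one, Real.norm_eq_abs, abs_of_pos (by linarith : 0 < c + d)] at k1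
  rw [e2, norm_smul, hE, mul_one, Real.norm_eq_abs, e3, norm_neg, ← k1] at k2
  have := abs_sub_lt_iff.2 (⟨by linarith, by linarith⟩ : d - c < c + d ∧ c - d < c + d)
  linarith

/-- `R` is additive on the open ball. -/
theorem D_zero (C : Ctx p P f g L) {w w' : X} (hw : P w = w) (hw' : P w' = w') (hn : ‖w‖ < 1)
    (hn' : ‖w'‖ < 1) : RR f w - RR f w' - RR f (w - w') = 0 := by
  by_contra hD
  have hww : P (w - w') = w - w' := by rw [map_sub, hw, hw']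
  have hLD : L (RR f w - RR f w' - RR f (w - w')) = 0 := by
    rw [map_sub, map_sub, C.L_RR hw, C.L_RR hw', C.L_RR hww, sub_self]
  obtain ⟨d, E, hd, hE1, hDE⟩ := exists_decomp hD
  have hLE : L E = 0 := by
    rw [hDE, map_smul] at hLD
    exact (smul_eq_zero.1 hLD).resolve_left hd.ne'
  have hb0 : 0 < bb p ‖w‖ := bb_pos C.hp0 (norm_nonneg _) hn
  have hb0' : 0 < bb p ‖w'‖ := bb_pos C.hp0 (norm_nonneg _) hn'
  have hbr : bb p ‖w‖ ^ p = 1 - ‖w‖ ^ p := bb_rpow C.hp0 (norm_nonneg _) hn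
  have hbr' : bb p ‖w'‖ ^ p = 1 - ‖w'‖ ^ p := bb_rpow C.hp0 (norm_nonneg _) hn'
  obtain ⟨x₁, hx₁, hPx₁, htx₁⟩ := C.exists_point (u := bb p ‖w‖ • E) hw
    (by rw [map_smul, hLE, smul_zero])
    (by rw [norm_smul, hE1, mul_one, Real.norm_of_nonneg hb0.le, hbr]; ring)
  obtain ⟨x₂, hx₂, hPx₂, htx₂⟩ := C.exists_point (u := -(bb p ‖w'‖ • E)) hw'
    (by rw [map_neg, map_smul, hLE, smul_zero, neg_zero])
    (by rw [norm_neg, norm_smul, hE1, mul_one, Real.norm_of_nonneg hb0'.le, hbr']; ring)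
  refine C.sep hx₁ hx₂ hE1 hd (add_pos hb0 hb0') (by rw [htx₁, htx₂]; module) ?_
  rw [hPx₁, hPx₂]
  exact hDE

theorem RR_add (C : Ctx p P f g L) {a b : X} (ha : P a = a) (hb : P b = b) :
    RR f (a + b) = RR f a + RR f b := by
  set c : ℝ := (1 + ‖a + b‖ + ‖b‖)⁻¹ with hc
  have hpos : 0 < 1 + ‖a + b‖ + ‖b‖ := by positivity
  have hc0 : 0 < c := inv_pos.2 hpos
  have hcm : c * (1 + ‖a + b‖ + ‖b‖) = 1 := inv_mul_cancel₀ hpos.ne'
  have h1 : ‖c • (a + b)‖ < 1 := by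
    rw [norm_smul, Real.norm_of_nonneg hc0.le]
    nlinarith [norm_nonneg b, norm_nonneg (a + b)]
  have h2 : ‖c • b‖ < 1 := by
    rw [norm_smul, Real.norm_of_nonneg hc0.le]
    nlinarith [norm_nonneg b, norm_nonneg (a + b)]
  have hab : P (c • (a + b)) = c • (a + b) := by rw [map_smul, map_add, ha, hb]
  have hcb : P (c • b) = c • b := by rw [map_smul, hb]
  have h3 := C.D_zero hab hcb h1 h2
  have e : c • (a + b) - c • b = c • a := by module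
  rw [e, RR_smul f hc0, RR_smul f hc0, RR_smul f hc0] at h3
  have h4 : c • (RR f (a + b) - RR f b - RR f a) = 0 := by
    rw [smul_sub, smul_sub]
    exact h3
  have h5 := (smul_eq_zero.1 h4).resolve_left hc0.ne'
  have h6 : RR f (a + b) - (RR f a + RR f b) = 0 := by
    rw [← h5]
    abel
  exact sub_eq_zero.1 h6

/-- `R ∘ P` as a continuous linear map. -/
noncomputable def Rl (C : Ctx p P f g L) : X →L[ℝ] Y :=
  (AddMonoidHom.mk' (fun x => RR f (P x)) (fun x x' => by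
      show RR f (P (x + x')) = RR f (P x) + RR f (P x')
      rw [map_add]
      exact C.RR_add (C.H.idem x) (C.H.idem x'))).toRealLinearMap
    (AddMonoidHomClass.continuous_of_bound _ 1 fun x => by
      rw [one_mul]
      show ‖RR f (P x)‖ ≤ ‖x‖
      rw [C.norm_RR]
      exact C.H.norm_le C.hp x)

theorem Rl_apply (C : Ctx p P f g L) (x : X) : C.Rl x = RR f (P x) := rfl

theorem tau_iso (C : Ctx p P f g L) {x x' : X} (hx : ‖x‖ = 1) (hx' : ‖x'‖ = 1) :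
    ‖tau f P x - tau f P x'‖ = ‖(x - P x) - (x' - P x')‖ := by
  rw [← C.key hx hx']
  congr 1
  have e : RR f (P x - P x') = RR f (P x) - RR f (P x') := by
    have e0 := C.RR_add (a := P x - P x') (b := P x') (by rw [map_sub, C.H.idem, C.H.idem])
      (C.H.idem x')
    rw [sub_add_cancel] at e0
    rw [e0]
    abel
  rw [e, tau, tau]
  abel

/-- The projection on `ker L`. -/
noncomputable def piY (C : Ctx p P f g L) : Y →ₗ[ℝ] LinearMap.ker (L : Y →ₗ[ℝ] X) :=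
  LinearMap.codRestrict _
    ((LinearMap.id : Y →ₗ[ℝ] Y) - (C.Rl : X →ₗ[ℝ] Y) ∘ₗ (L : Y →ₗ[ℝ] X)) (fun y => by
    rw [LinearMap.mem_ker]
    show L (y - C.Rl (L y)) = 0
    rw [map_sub, C.Rl_apply, C.P_L, C.L_RR (C.P_L y), sub_self])

theorem piY_coe (C : Ctx p P f g L) (y : Y) : (C.piY y : Y) = y - RR f (L y) := by
  show y - RR f (P (L y)) = _
  rw [C.P_L]

section Ball

variable {w₀ : X}

theorem P_UU (C : Ctx p P f g L) (hP₀ : P w₀ = w₀) (ζ : LinearMap.ker (P : X →ₗ[ℝ] X)) :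
    P (UU p w₀ ζ) = bb p ‖ζ‖ • w₀ := by
  have hζ : P (ζ : X) = 0 := LinearMap.mem_ker.1 ζ.2
  rw [UU, map_add, map_smul, hζ, hP₀, zero_add]

theorem sub_UU (C : Ctx p P f g L) (hP₀ : P w₀ = w₀) (ζ : LinearMap.ker (P : X →ₗ[ℝ] X)) :
    UU p w₀ ζ - P (UU p w₀ ζ) = ζ := by
  rw [C.P_UU hP₀, UU, add_sub_cancel_right]

theorem norm_UU (C : Ctx p P f g L) (h₀ : ‖w₀‖ = 1) (hP₀ : P w₀ = w₀)
    {ζ : LinearMap.ker (P : X →ₗ[ℝ] X)} (hζ : ‖ζ‖ < 1) : ‖UU p w₀ ζ‖ = 1 := by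
  have h1 := C.H.pyth (UU p w₀ ζ)
  have hb := bb_pos (r := ‖ζ‖) C.hp0 (norm_nonneg _) hζ
  have hζ' : ‖(ζ : X)‖ = ‖ζ‖ := rfl
  rw [C.sub_UU hP₀, C.P_UU hP₀, norm_smul, h₀, mul_one, Real.norm_of_nonneg hb.le,
    bb_rpow C.hp0 (norm_nonneg _) hζ, hζ'] at h1
  apply rpow_inj C.hp0 (norm_nonneg _) zero_le_one
  rw [h1, Real.one_rpow]
  ring

/-- The map of the open unit balls. -/
noncomputable def TT (C : Ctx p P f g L) (w₀ : X) (ζ : LinearMap.ker (P : X →ₗ[ℝ] X)) :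
    LinearMap.ker (L : Y →ₗ[ℝ] X) :=
  C.piY (f (UU p w₀ ζ))

theorem TT_coe (C : Ctx p P f g L) (h₀ : ‖w₀‖ = 1) (hP₀ : P w₀ = w₀)
    {ζ : LinearMap.ker (P : X →ₗ[ℝ] X)} (hζ : ‖ζ‖ < 1) : (C.TT w₀ ζ : Y) = tau f P (UU p w₀ ζ) := by
  rw [TT, piY_coe, C.hL _ (C.norm_UU h₀ hP₀ hζ), tau]

theorem TT_zero (C : Ctx p P f g L) (h₀ : ‖w₀‖ = 1) (hP₀ : P w₀ = w₀) : C.TT w₀ 0 = 0 := by
  apply Subtype.ext
  have hU : UU p w₀ (0 : LinearMap.ker (P : X →ₗ[ℝ] X)) = w₀ := by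
    have : bb p 0 = 1 := by
      rw [bb, Real.zero_rpow C.hp0.ne', sub_zero, Real.one_rpow]
    simp [UU, this]
  rw [C.TT_coe h₀ hP₀ (by simp), hU, tau, hP₀, RR_unit f h₀, sub_self]
  rfl

theorem TT_iso (C : Ctx p P f g L) (h₀ : ‖w₀‖ = 1) (hP₀ : P w₀ = w₀)
    (ζ ζ' : LinearMap.ker (P : X →ₗ[ℝ] X)) (h : ‖ζ‖ < 1) (h' : ‖ζ'‖ < 1) :
    ‖C.TT w₀ ζ - C.TT w₀ ζ'‖ = ‖ζ - ζ'‖ := by
  show ‖((C.TT w₀ ζ - C.TT w₀ ζ' : LinearMap.ker (L : Y →ₗ[ℝ] X)) : Y)‖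
    = ‖((ζ - ζ' : LinearMap.ker (P : X →ₗ[ℝ] X)) : X)‖
  rw [Submodule.coe_sub, Submodule.coe_sub, C.TT_coe h₀ hP₀ h, C.TT_coe h₀ hP₀ h',
    C.tau_iso (C.norm_UU h₀ hP₀ h) (C.norm_UU h₀ hP₀ h'), C.sub_UU hP₀, C.sub_UU hP₀]

theorem TT_onto (C : Ctx p P f g L) (h₀ : ‖w₀‖ = 1) (hP₀ : P w₀ = w₀)
    (y : LinearMap.ker (L : Y →ₗ[ℝ] X)) (hy : ‖y‖ < 1) :
    ∃ ζ : LinearMap.ker (P : X →ₗ[ℝ] X), ‖ζ‖ < 1 ∧ C.TT w₀ ζ = y := by
  have hyn : ‖(y : Y)‖ = ‖y‖ := rfl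
  have hLy : L (y : Y) = 0 := LinearMap.mem_ker.1 y.2
  have hb : 0 < bb p ‖y‖ := bb_pos C.hp0 (norm_nonneg _) hy
  have hbr : bb p ‖y‖ ^ p = 1 - ‖y‖ ^ p := bb_rpow C.hp0 (norm_nonneg _) hy
  have hnw : ‖bb p ‖y‖ • w₀‖ = bb p ‖y‖ := by
    rw [norm_smul, h₀, mul_one, Real.norm_of_nonneg hb.le]
  obtain ⟨t, ht, hPt, htt⟩ := C.exists_point (w := bb p ‖y‖ • w₀) (u := (y : Y))
    (by rw [map_smul, hP₀]) hLy (by rw [hnw, hbr, hyn]; ring)
  have hn := C.norm_tau ht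
  rw [htt, hyn] at hn
  have hnorm : ‖piX C.H t‖ = ‖y‖ := by
    show ‖(piX C.H t : X)‖ = _
    rw [piX_coe, hn]
  have hU : UU p w₀ (piX C.H t) = t := by
    rw [UU, hnorm, piX_coe, hPt, sub_add_cancel]
  have hlt : ‖piX C.H t‖ < 1 := by rw [hnorm]; exact hy
  refine ⟨piX C.H t, hlt, ?_⟩
  apply Subtype.ext
  rw [C.TT_coe h₀ hP₀ hlt, hU, htt]

/-- **The extension.** -/
theorem exists_extension (C : Ctx p P f g L) (h₀ : ‖w₀‖ = 1) (hP₀ : P w₀ = w₀) :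
    ∃ T : X ≃ₗᵢ[ℝ] Y, ∀ x, ‖x‖ = 1 → T x = f x := by
  obtain ⟨L₀, hL₀⟩ := ball_linear (C.TT_zero h₀ hP₀) (C.TT_iso h₀ hP₀) (C.TT_onto h₀ hP₀)
  let Tl : X →ₗ[ℝ] Y :=
    (LinearMap.ker (L : Y →ₗ[ℝ] X)).subtype ∘ₗ (L₀.toLinearEquiv : _ →ₗ[ℝ] _) ∘ₗ piX C.H +
      (C.Rl : X →ₗ[ℝ] Y)
  have hTl : ∀ x, Tl x = (L₀ (piX C.H x) : Y) + RR f (P x) := fun x => rfl
  have hLL : ∀ ζ, L (L₀ ζ : Y) = 0 := fun ζ => LinearMap.mem_ker.1 (L₀ ζ).2
  have hLT : ∀ x, L (Tl x) = P x := fun x => by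
    rw [hTl, map_add, hLL, zero_add, C.L_RR (C.H.idem x)]
  have hnorm : ∀ x, ‖Tl x‖ = ‖x‖ := fun x => by
    apply rpow_inj C.hp0 (norm_nonneg _) (norm_nonneg _)
    rw [C.norm_formula (Tl x), C.H.pyth x, hLT]
    have e1 : Tl x - RR f (P x) = (L₀ (piX C.H x) : Y) := by
      rw [hTl, add_sub_cancel_right]
    have e2 : ‖(L₀ (piX C.H x) : Y)‖ = ‖x - P x‖ := by
      show ‖L₀ (piX C.H x)‖ = _
      rw [L₀.norm_map]
      rfl
    rw [e1, e2]
  have hsurj : Function.Surjective Tl := by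
    intro y
    refine ⟨(L₀.symm (C.piY y) : X) + L y, ?_⟩
    have hPw : P (L₀.symm (C.piY y) : X) = 0 := LinearMap.mem_ker.1 (L₀.symm (C.piY y)).2
    have h1 : P ((L₀.symm (C.piY y) : X) + L y) = L y := by
      rw [map_add, hPw, zero_add, C.P_L]
    have h2 : piX C.H ((L₀.symm (C.piY y) : X) + L y) = L₀.symm (C.piY y) := by
      apply Subtype.ext
      rw [piX_coe, h1, add_sub_cancel_right]
    rw [hTl, h2, h1, L₀.apply_symm_apply, piY_coe, sub_add_cancel]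
  let Li : X →ₗᵢ[ℝ] Y := ⟨Tl, hnorm⟩
  have htau : ∀ x : X, ‖x‖ = 1 → (L₀ (piX C.H x) : Y) = tau f P x := by
    intro x hx
    by_contra hne
    have hδ : 0 < ‖(L₀ (piX C.H x) : Y) - tau f P x‖ := norm_pos_iff.2 (sub_ne_zero.2 hne)
    set δ := ‖(L₀ (piX C.H x) : Y) - tau f P x‖ with hδdef
    set s : ℝ := min (1 / 2) (δ / 4) with hs
    have hs0 : 0 < s := lt_min (by norm_num) (by linarith)
    have hs1 : s ≤ 1 / 2 := min_le_left _ _
    have hs2 : s ≤ δ / 4 := min_le_right _ _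
    set c : ℝ := 1 - s with hc
    have hc0 : 0 < c := by rw [hc]; linarith
    have hc1 : c < 1 := by rw [hc]; linarith
    set ζ := piX C.H x with hζ
    have hζn : ‖ζ‖ ≤ 1 := by
      show ‖(piX C.H x : X)‖ ≤ 1
      rw [piX_coe, ← hx]
      exact C.H.norm_sub_le C.hp x
    have hcζ : ‖c • ζ‖ < 1 := by
      rw [norm_smul, Real.norm_of_nonneg hc0.le]
      nlinarith
    have hU := C.norm_UU h₀ hP₀ hcζ
    have h1 := C.tau_iso hx hU
    rw [C.sub_UU hP₀, ← C.TT_coe h₀ hP₀ hcζ, hL₀ _ hcζ] at h1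
    have e1 : ‖(x - P x) - ((c • ζ : LinearMap.ker (P : X →ₗ[ℝ] X)) : X)‖ = s * ‖ζ‖ := by
      have : (x - P x) - ((c • ζ : LinearMap.ker (P : X →ₗ[ℝ] X)) : X) = s • (ζ : X) := by
        rw [hζ, Submodule.coe_smul, piX_coe, hc]
        module
      rw [this, norm_smul, Real.norm_of_nonneg hs0.le]
      rfl
    have e2 : ‖(L₀ ζ : Y) - (L₀ (c • ζ) : Y)‖ = s * ‖ζ‖ := by
      show ‖((L₀ ζ - L₀ (c • ζ) : LinearMap.ker (L : Y →ₗ[ℝ] X)) : Y)‖ = _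
      rw [← map_sub]
      show ‖L₀ (ζ - c • ζ)‖ = _
      rw [L₀.norm_map]
      have : ζ - c • ζ = s • ζ := by
        rw [hc]
        module
      rw [this, norm_smul, Real.norm_of_nonneg hs0.le]
    have h3 := norm_add_le ((L₀ ζ : Y) - (L₀ (c • ζ) : Y)) ((L₀ (c • ζ) : Y) - tau f P x)
    rw [sub_add_sub_cancel, ← hδdef, e2, norm_sub_rev (L₀ (c • ζ) : Y), h1, e1] at h3
    nlinarith
  refine ⟨LinearIsometryEquiv.ofSurjective Li hsurj, fun x hx => ?_⟩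
  show Tl x = f x
  rw [hTl, htau x hx, tau, sub_add_cancel]

end Ball

end Ctx

/-- **Tingley's problem for `Z ⊕_p W`, `W` strictly convex**, source version: `X` infinite
dimensional. -/
theorem extends_of_isLpSummand {p : ℝ} {P : X →L[ℝ] X} (H : IsLpSummand p P) (hp : 1 < p)
    (hX : ¬ FiniteDimensional ℝ X) {f : X → Y} (hf : IsSphereIso f) :
    ∃ T : X ≃ₗᵢ[ℝ] Y, ∀ x, ‖x‖ = 1 → T x = f x := by
  obtain ⟨g, hg, hgf, hfg⟩ := exists_isSphereIso_inv hf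
  have hY := not_finiteDimensional_target hf hX
  have hodd : ∀ x : X, ‖x‖ = 1 → f (-x) = - f x := fun x hx => Inf.odd_of_isSphereIso hf hx
  have hgodd : ∀ y : Y, ‖y‖ = 1 → g (-y) = - g y := fun y hy => Inf.odd_of_isSphereIso hg hy
  obtain ⟨L, hLb, hL⟩ := exists_L H hp (four_le_rank_of_infinite hY) hf hg hgf hfg hodd hgodd
  obtain ⟨x, hx⟩ := H.ne_zero
  refine Ctx.exists_extension (w₀ := ‖P x‖⁻¹ • P x)
    ⟨H, hp, hf, hg, hgf, hfg, hodd, hLb, hL⟩ (unit_of_ne hx) ?_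
  rw [map_smul, H.idem]

/-- Map of the unit spheres, source version. -/
theorem extends_sphere_source (f : sphere (0 : X) 1 → sphere (0 : Y) 1) (hf : Isometry f)
    (hs : Function.Surjective f) {p : ℝ} {P : X →L[ℝ] X} (H : IsLpSummand p P) (hp : 1 < p)
    (hX : ¬ FiniteDimensional ℝ X) : ∃ T : X ≃ₗᵢ[ℝ] Y, ∀ x : sphere (0 : X) 1, T x = f x := by
  obtain ⟨g, hg, hgf⟩ := exists_ambient f hf hs
  obtain ⟨T, hT⟩ := extends_of_isLpSummand H hp hX hg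
  exact ⟨T, fun x => by rw [hT x (by simpa using x.2), hgf]⟩

/-- Map of the unit spheres, target version. -/
theorem extends_sphere_target (f : sphere (0 : X) 1 → sphere (0 : Y) 1) (hf : Isometry f)
    (hs : Function.Surjective f) {p : ℝ} {P : Y →L[ℝ] Y} (H : IsLpSummand p P) (hp : 1 < p)
    (hY : ¬ FiniteDimensional ℝ Y) : ∃ T : X ≃ₗᵢ[ℝ] Y, ∀ x : sphere (0 : X) 1, T x = f x := by
  obtain ⟨h, hh, hhs, htr⟩ := exists_inverse f hf hs
  exact htr (extends_sphere_source h hh hhs H hp hY)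

end Vale.Agent.Lib.P084.LpSumW
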